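import Vale.Agent.Lib.P329.Tower4
import Vale.Agent.Lib.P329.Rees
import Vale.Agent.Lib.P329.Nil4Main
import Vale.Agent.Lib.P329.PosStmt
import Vale.Agent.Lib.P329.Subword

namespace Vale.Agent.Results.P329.CascadeReesSubwordOmnibus

open Vale.Agent.Lib.P329

universe u v

/-- The multiplication of the Rees zero-matrix semigroup over the group `G` with sandwich
matrix `P` (a matrix with rows indexed by `Λ`, columns indexed by `I` and entries in `G` or
zero, the zero entry being `none`): the nonzero elements of the semigroup are the triples
`(i, g, l)`, its zero is `none`, and `(i, g, l) (j, h, m) = (i, g * p * h, m)` if the entry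
`P l j` is `some p`, while the product is zero if `P l j = none` or a factor is zero. -/
def reesMul {I Λ G : Type} [Mul G] (P : Λ → I → Option G) :
    Option (I × G × Λ) → Option (I × G × Λ) → Option (I × G × Λ)
  | some (i, g, l), some (j, h, m) => (P l j).map (fun p => (i, g * p * h, m))
  | _, _ => none

lemma reesMul_eq {I Λ G : Type} [Mul G] (P : Λ → I → Option G)
    (s t : Option (I × G × Λ)) : reesMul P s t = Rees.rmul P s t := by
  cases s with
  | none => rfl
  | some x =>
    cases t with
    | none => rfl
    | some y => rfl

/-- Six families of languages of generalized star height at most one.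
(1) Cascades of a counter-free deterministic finite automaton over a group `G` that is a
quotient of a subgroup of a finite direct product of finite groups, each nilpotent of class at
most three, or nilpotent of class at most four with abelian commutator subgroup, or having an
abelian normal subgroup with elementary abelian `p`-quotient for some prime `p`.
(2) Languages recognized by a Rees zero-matrix semigroup over a finite nilpotent group of class
at most two.
(3) Languages recognized by a finite nilpotent group of class at most four through a map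
sending the letters to at most two elements other than the identity.
(4) Counting modulo `n` the occurrences of a word of length at most three as a scattered
subword.
(5) The same for a word of length at most four in which at most two distinct letters occur.
(6) Counting modulo `N` the positions that carry a letter `b` and are preceded by a number of
letters of a set `S` congruent to `r` modulo a prime power. -/
theorem result :
    (∀ (α τ G ι : Type) [Fintype α] [Fintype τ] [Fintype ι] [Group G]
      (K : ι → Type) [∀ i, Group (K i)] [∀ i, Fintype (K i)],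
      (∀ i, (⊤ : Subgroup (K i)).lowerCentralSeries 3 = ⊥ ∨
        ((⊤ : Subgroup (K i)).lowerCentralSeries 4 = ⊥ ∧
          ∀ a b : K i, a ∈ commutator (K i) → b ∈ commutator (K i) → a * b = b * a) ∨
        ∃ p : ℕ, p.Prime ∧ ∃ A : Subgroup (K i), A.Normal ∧
          (∀ a ∈ A, ∀ b ∈ A, a * b = b * a) ∧
          (∀ g : K i, g ^ p ∈ A) ∧ (∀ g h : K i, g * h * g⁻¹ * h⁻¹ ∈ A)) →
      ∀ (H : Subgroup (∀ i, K i)) (π : H →* G), Function.Surjective π →
      ∀ (φ : α → G) (T : DFA (G × α) τ),
      (∀ (t : τ) (u : List (G × α)) (n : ℕ), 0 < n →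
        T.evalFrom t (List.replicate n u).flatten = t → T.evalFrom t u = t) →
      ∀ (P : Set (G × τ)),
      ∃ e : GRegex α, e.starHeight ≤ 1 ∧
        e.lang = {w : List α | w.foldl (fun (s : G × τ) (a : α) =>
          (s.1 * φ a, T.step s.2 (s.1, a))) (1, T.start) ∈ P}) ∧
    (∀ (α I Λ G : Type) [Fintype α] [Group G] [Fintype G] [Group.IsNilpotent G],
      Group.nilpotencyClass G ≤ 2 → ∀ (P : Λ → I → Option G)
        (φ : α → Option (I × G × Λ)) (Q : Set (Option (I × G × Λ))),
      ∃ e : GRegex α, e.starHeight ≤ 1 ∧
        e.lang = {w : List α | ∃ a v, w = a :: v ∧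
          v.foldl (fun s c => reesMul P s (φ c)) (φ a) ∈ Q}) ∧
    (∀ (α : Type u) (G : Type v) [Fintype α] [Group G] [Fintype G] [Group.IsNilpotent G],
      Group.nilpotencyClass G ≤ 4 → ∀ (φ : α → G),
        (∃ x y : G, ∀ a : α, φ a = 1 ∨ φ a = x ∨ φ a = y) → ∀ (P : Set G),
        ∃ e : GRegex α, e.starHeight ≤ 1 ∧ e.lang = {w : List α | (w.map φ).prod ∈ P}) ∧
    (∀ (α : Type u) [Fintype α] [DecidableEq α] (v : List α), v.length ≤ 3 → ∀ n : ℕ, 0 < n →
      ∀ k : ℕ, ∃ e : GRegex α, e.starHeight ≤ 1 ∧
        e.lang = {w : List α | w.sublists.count v % n = k}) ∧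
    (∀ (α : Type u) [Fintype α] [DecidableEq α] (v : List α), v.length ≤ 4 →
      ∀ a b : α, (∀ x ∈ v, x = a ∨ x = b) → ∀ n : ℕ, 0 < n →
      ∀ k : ℕ, ∃ e : GRegex α, e.starHeight ≤ 1 ∧
        e.lang = {w : List α | w.sublists.count v % n = k}) ∧
    (∀ (α : Type u) [Fintype α] [DecidableEq α] (S : α → Bool) (b : α) (p f : ℕ), p.Prime →
      ∀ r N k : ℕ, 0 < N → ∃ e : GRegex α, e.starHeight ≤ 1 ∧ e.lang = {w : List α |
        ((Finset.range w.length).filter
          (fun i => w[i]? = some b ∧ (w.take i).countP S % p ^ f = r)).card % N = k}) := by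
  refine ⟨?_, ?_, ?_, ?_, ?_, ?_⟩
  · intro α τ G ι _ _ _ _ K _ _ hK H π hπ φ T hT P
    exact Tower.over_divisor4 K hK H π hπ φ T hT P
  · intro α I Λ G _ _ _ _ hG P φ Q
    have h : (fun (s : Option (I × G × Λ)) (c : α) => reesMul P s (φ c)) =
        fun s c => Rees.rmul P s (φ c) := by
      funext s c
      exact reesMul_eq P s (φ c)
    rw [h]
    exact Rees.main P φ hG Q
  · intro α G _ _ _ _ hcl φ hφ P
    exact Nil4.main hcl φ hφ P
  · intro α _ _ v hv n hn k
    exact Sub.main v hv n hn k
  · intro α _ _ v hv a b hab n hn k
    exact Sub4.main v hv a b hab n hn k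
  · intro α _ _ S b p f hp r N k hN
    exact Pos.main S b p f hp r N k hN

end Vale.Agent.Results.P329.CascadeReesSubwordOmnibus
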