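import Vale.Agent.Lib.P329.M4Main
import Vale.Agent.Lib.P329.PElem
import Vale.Agent.Lib.P329.Subword

namespace Vale.Agent.Results.P329.ClassFourAbelianCommutator

open Vale.Agent.Lib.P329

universe u v

/-- Four families of languages of generalized star height at most one.
(1) Languages recognized by a finite nilpotent group of class at most four whose commutator
subgroup is abelian, over every finite alphabet.
(2) Languages recognized by a finite nilpotent group of class at most three.
(3) Languages recognized by a finite group with an abelian normal subgroup `A` such that, for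
a prime `p`, every `p`-th power and every commutator lies in `A`.
(4) For a word `v` of length at most three and a modulus `n ≥ 1`, the words in which the number
of occurrences of `v` as a scattered subword is congruent to `k` modulo `n`. -/
theorem result :
    (∀ (α : Type u) (G : Type v) [Fintype α] [Group G] [Fintype G] [Group.IsNilpotent G],
      Group.nilpotencyClass G ≤ 4 →
      (∀ a b : G, a ∈ commutator G → b ∈ commutator G → a * b = b * a) →
        ∀ (φ : α → G) (P : Set G),
        ∃ e : GRegex α, e.starHeight ≤ 1 ∧ e.lang = {w : List α | (w.map φ).prod ∈ P}) ∧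
    (∀ (α : Type u) (G : Type v) [Fintype α] [Group G] [Fintype G] [Group.IsNilpotent G],
      Group.nilpotencyClass G ≤ 3 → ∀ (φ : α → G) (P : Set G),
        ∃ e : GRegex α, e.starHeight ≤ 1 ∧ e.lang = {w : List α | (w.map φ).prod ∈ P}) ∧
    (∀ (α : Type u) (G : Type v) [Fintype α] [Group G] [Fintype G] (p : ℕ), p.Prime →
      ∀ A : Subgroup G, A.Normal → (∀ a ∈ A, ∀ b ∈ A, a * b = b * a) → (∀ g : G, g ^ p ∈ A) →
        (∀ g h : G, g * h * g⁻¹ * h⁻¹ ∈ A) → ∀ (φ : α → G) (P : Set G),
        ∃ e : GRegex α, e.starHeight ≤ 1 ∧ e.lang = {w : List α | (w.map φ).prod ∈ P}) ∧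
    (∀ (α : Type u) [Fintype α] [DecidableEq α] (v : List α), v.length ≤ 3 → ∀ n : ℕ, 0 < n →
      ∀ k : ℕ, ∃ e : GRegex α, e.starHeight ≤ 1 ∧
        e.lang = {w : List α | w.sublists.count v % n = k}) := by
  refine ⟨?_, ?_, ?_, ?_⟩
  · intro α G _ _ _ _ hcl hM φ P
    exact M4.main hcl hM φ P
  · intro α G _ _ _ _ hcl φ P
    exact Nil3.main hcl φ P
  · intro α G _ _ _ p hp A hN hA hpow hcomm φ P
    have : Fact p.Prime := ⟨hp⟩
    have : A.Normal := hN
    exact Ab.elem_main p A hA hpow hcomm φ P
  · intro α _ _ v hv n hn k
    exact Sub.main v hv n hn k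

end Vale.Agent.Results.P329.ClassFourAbelianCommutator
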