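import Vale.Agent.Lib.P329.Tower4

namespace Vale.Agent.Results.P329.CounterFreeOverDivisorFour

open Vale.Agent.Lib.P329

/-- Let `G` be a quotient of a subgroup `H` of a finite direct product of finite groups `K i`,
each of which is nilpotent of class at most three, or nilpotent of class at most four with
abelian commutator subgroup, or has an abelian normal subgroup with elementary abelian
`p`-quotient for some prime `p`, and let `φ` map a finite alphabet into `G`.
Let `T` be a counter-free deterministic finite automaton over the alphabet `G × α`, fed at each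
step with the product of the images of the letters read so far together with the next letter.
Then every language defined by the pair (product of the images of all letters, final state of
`T`) has generalized star height at most one. -/
theorem result {α τ G ι : Type} [Fintype α] [Fintype τ] [Fintype ι] [Group G]
    (K : ι → Type) [∀ i, Group (K i)] [∀ i, Fintype (K i)]
    (hK : ∀ i, (⊤ : Subgroup (K i)).lowerCentralSeries 3 = ⊥ ∨
      ((⊤ : Subgroup (K i)).lowerCentralSeries 4 = ⊥ ∧
        ∀ a b : K i, a ∈ commutator (K i) → b ∈ commutator (K i) → a * b = b * a) ∨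
      ∃ p : ℕ, p.Prime ∧ ∃ A : Subgroup (K i), A.Normal ∧ (∀ a ∈ A, ∀ b ∈ A, a * b = b * a) ∧
        (∀ g : K i, g ^ p ∈ A) ∧ (∀ g h : K i, g * h * g⁻¹ * h⁻¹ ∈ A))
    (H : Subgroup (∀ i, K i)) (π : H →* G) (hπ : Function.Surjective π)
    (φ : α → G) (T : DFA (G × α) τ)
    (hT : ∀ (t : τ) (u : List (G × α)) (n : ℕ), 0 < n →
      T.evalFrom t (List.replicate n u).flatten = t → T.evalFrom t u = t)
    (P : Set (G × τ)) :
    ∃ e : GRegex α, e.starHeight ≤ 1 ∧
      e.lang = {w : List α | w.foldl (fun (s : G × τ) (a : α) =>
        (s.1 * φ a, T.step s.2 (s.1, a))) (1, T.start) ∈ P} :=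
  Tower.over_divisor4 K hK H π hπ φ T hT P

end Vale.Agent.Results.P329.CounterFreeOverDivisorFour
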