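import Vale.Agent.Lib.P329.Rees

namespace Vale.Agent.Results.P329.ReesClassTwo

open Vale.Agent.Lib.P329

/-- The multiplication of the Rees zero-matrix semigroup over the group `G` with sandwich
matrix `P` (a matrix with rows indexed by `Λ`, columns indexed by `I` and entries in `G` or
zero, the zero entry being `none`): the nonzero elements of the semigroup are the triples
`(i, g, l)`, its zero is `none`, and `(i, g, l) (j, h, m) = (i, g * p * h, m)` if the entry
`P l j` is `some p`, while the product is zero if `P l j = none` or a factor is zero. -/
def reesMul {I Λ G : Type} [Mul G] (P : Λ → I → Option G) :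
    Option (I × G × Λ) → Option (I × G × Λ) → Option (I × G × Λ)
  | some (i, g, l), some (j, h, m) => (P l j).map (fun p => (i, g * p * h, m))
  | _, _ => none

lemma reesMul_eq {I Λ G : Type} [Mul G] (P : Λ → I → Option G)
    (s t : Option (I × G × Λ)) : reesMul P s t = Rees.rmul P s t := by
  cases s with
  | none => rfl
  | some x =>
    cases t with
    | none => rfl
    | some y => rfl

/-- Rees zero-matrix semigroups over nilpotent groups of class at most two.  Let `G` be a
finite nilpotent group of class at most two, `P` a sandwich matrix with entries in `G` or
zero, and `φ` a map from a finite alphabet to the Rees zero-matrix semigroup over `G` with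
sandwich matrix `P`.  Then for every set `Q` of elements of the semigroup, the language of
the nonempty words whose image (the product of the images of the letters, from left to
right) lies in `Q` has generalized star height at most one. -/
theorem result {α I Λ G : Type} [Fintype α] [Group G] [Fintype G] [Group.IsNilpotent G]
    (hG : Group.nilpotencyClass G ≤ 2) (P : Λ → I → Option G)
    (φ : α → Option (I × G × Λ)) (Q : Set (Option (I × G × Λ))) :
    ∃ e : GRegex α, e.starHeight ≤ 1 ∧
      e.lang = {w : List α | ∃ a v, w = a :: v ∧
        v.foldl (fun s c => reesMul P s (φ c)) (φ a) ∈ Q} := by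
  have h : (fun (s : Option (I × G × Λ)) (c : α) => reesMul P s (φ c)) =
      fun s c => Rees.rmul P s (φ c) := by
    funext s c
    exact reesMul_eq P s (φ c)
  rw [h]
  exact Rees.main P φ hG Q

end Vale.Agent.Results.P329.ReesClassTwo
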